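import Vale.Agent.P097.H128.NZ.Defs3
import Vale.Agent.P097.H128.NZ.End1
import Vale.Agent.P097.H247.NZC
import Vale.Agent.P097.H992.NZF

/-! # P097 / program NZ: the exponents at the finitely branched ends, and no zero of the radius of
curvature in a domain of continuation (NZ-H2).  Owner: helper519. -/

set_option linter.all false

open Complex Metric Filter Topology Set

namespace Vale.Agent.P097.H519

open Vale.Agent.P097.NZ Vale.Agent.P097.TA Vale.Agent.P097.H202 Vale.Agent.P097.H402.Rat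

/-! ## 1. Goodness depends only on the germ -/

theorem kr_ev {ρ ρ' : ℂ → ℂ} {z : ℂ} (h : ρ =ᶠ[𝓝 z] ρ') :
    ∀ᶠ p in 𝓝 ((z, 0) : ℂ × ℂ), ∀ v ∈ closedBall (0 : ℂ) 3, kr ρ p v = kr ρ' p v := by
  obtain ⟨r, hr, h1⟩ := Metric.eventually_nhds_iff_ball.1 h
  refine eventually_of_polydisc (r := r / 2) (s := r / 6) (by positivity) (by positivity)
    fun z' hz' δ hδ v hv => ?_
  have h2 : z' + δ * v ∈ ball z r := by
    rw [mem_ball, dist_eq_norm] at hz' ⊢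
    rw [mem_ball_zero_iff] at hδ
    rw [mem_closedBall_zero_iff] at hv
    have h3 : ‖δ‖ * ‖v‖ ≤ r / 6 * 3 := mul_le_mul hδ.le hv (norm_nonneg _) (by positivity)
    calc ‖z' + δ * v - z‖ = ‖(z' - z) + δ * v‖ := by ring_nf
      _ ≤ ‖z' - z‖ + ‖δ * v‖ := norm_add_le _ _
      _ = ‖z' - z‖ + ‖δ‖ * ‖v‖ := by rw [norm_mul]
      _ < r := by linarith
  simp only [kr]
  rw [h1 _ h2]

theorem TT_ev {ρ ρ' : ℂ → ℂ} {z : ℂ} (h : ρ =ᶠ[𝓝 z] ρ') :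
    TT ρ =ᶠ[𝓝 ((z, 0) : ℂ × ℂ)] TT ρ' := by
  filter_upwards [kr_ev h] with p hp
  have h1 : root (kr ρ p) = root (kr ρ' p) :=
    root_congr one_ne_zero fun v hv => by rw [hp v hv, one_mul]
  simp only [TT, h1]

theorem root_le (K : ℂ → ℂ) : ‖root K‖ ≤ 3 := by
  unfold root
  split_ifs with h
  · have h1 := h.choose_spec.1
    rw [mem_ball, dist_eq_norm] at h1
    have h2 : ‖h.choose‖ ≤ ‖h.choose - 2‖ + ‖(2 : ℂ)‖ := by
      simpa using norm_add_le (h.choose - 2) 2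
    have h3 : ‖(2 : ℂ)‖ = 2 := by simp
    linarith
  · have h3 : ‖(2 : ℂ)‖ = 2 := by simp
    rw [h3]
    norm_num

theorem TT_tend (ρ : ℂ → ℂ) (z : ℂ) : Tendsto (TT ρ) (𝓝 ((z, 0) : ℂ × ℂ)) (𝓝 (z, 0)) := by
  have h0 : Tendsto (fun p : ℂ × ℂ => p.2) (𝓝 ((z, 0) : ℂ × ℂ)) (𝓝 0) :=
    continuous_snd.tendsto' _ _ rfl
  have h00 : Tendsto (fun p : ℂ × ℂ => p.1) (𝓝 ((z, 0) : ℂ × ℂ)) (𝓝 z) :=
    continuous_fst.tendsto' _ _ rfl
  have h1 : Tendsto (fun p : ℂ × ℂ => p.2 * root (kr ρ p)) (𝓝 ((z, 0) : ℂ × ℂ)) (𝓝 0) := by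
    refine squeeze_zero_norm (a := fun p => ‖p.2‖ * 3) (fun p => ?_) ?_
    · rw [norm_mul]
      exact mul_le_mul_of_nonneg_left (root_le _) (norm_nonneg _)
    · have := h0.norm.mul_const 3
      simpa using this
  have h3 : Tendsto (fun p : ℂ × ℂ => p.1 + p.2 * root (kr ρ p)) (𝓝 ((z, 0) : ℂ × ℂ)) (𝓝 z) := by
    have := h00.add h1
    simpa using this
  have h4 : Tendsto (fun p : ℂ × ℂ => p.2 * (root (kr ρ p) - 1)) (𝓝 ((z, 0) : ℂ × ℂ)) (𝓝 0) := by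
    have := h1.sub h0
    simpa [mul_sub] using this
  exact h3.prodMk_nhds h4

theorem iter_ev {ρ ρ' : ℂ → ℂ} {z : ℂ} (h : ρ =ᶠ[𝓝 z] ρ') (k : ℕ) :
    (TT ρ)^[k] =ᶠ[𝓝 ((z, 0) : ℂ × ℂ)] (TT ρ')^[k] := by
  induction k with
  | zero => exact EventuallyEq.rfl
  | succ k ih =>
    filter_upwards [(TT_tend ρ z).eventually ih, TT_ev h] with p h1 h2
    rw [Function.iterate_succ, Function.iterate_succ, Function.comp_apply, Function.comp_apply, h1,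
      h2]

theorem Dk_ev {ρ ρ' : ℂ → ℂ} {z : ℂ} (h : ρ =ᶠ[𝓝 z] ρ') (m : ℕ) :
    Dk (TT ρ) m =ᶠ[𝓝 ((z, 0) : ℂ × ℂ)] Dk (TT ρ') m := by
  have h1 : ∀ᶠ p in 𝓝 ((z, 0) : ℂ × ℂ), ∀ k ∈ Finset.range (m + 1),
      (TT ρ)^[k] p = (TT ρ')^[k] p :=
    (Filter.eventually_all_finset _).2 fun k _ => iter_ev h k
  filter_upwards [h1] with p hp
  unfold Dk
  refine Finset.sum_congr rfl fun n hn => ?_
  congr 1
  refine Finset.sum_congr rfl fun k hk => ?_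
  rw [Finset.mem_Icc] at hn
  rw [Finset.mem_range] at hk
  rw [hp k (Finset.mem_range.2 (by omega))]

theorem Ik_eq {ρ ρ' : ℂ → ℂ} {z : ℂ} (h : ρ =ᶠ[𝓝 z] ρ') (k : ℕ) : Ik ρ k z = Ik ρ' k z := by
  have h0 : ρ z = ρ' z := h.self_of_nhds
  have h1 : ∀ᶠ p in 𝓝 ((z, 0) : ℂ × ℂ), (fun p : ℂ × ℂ => Complex.sin p.2 * Dk (TT ρ) k p) p =
      (fun p : ℂ × ℂ => Complex.sin p.2 * Dk (TT ρ') k p) p := by
    filter_upwards [Dk_ev h k] with p hp
    simp only [hp]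
  have h2 := (tc_congr h1).self_of_nhds (k - 1)
  unfold Ik
  rw [h0, h2]

theorem good_congr {ρ ρ' : ℂ → ℂ} {z : ℂ} (h : ρ =ᶠ[𝓝 z] ρ') (hg : Good (Ik ρ) (TT ρ) z) :
    Good (Ik ρ') (TT ρ') z := by
  have h1 : ∀ᶠ z' in 𝓝 z, ∀ k, Ik ρ k z' = Ik ρ' k z' := by
    filter_upwards [h.eventuallyEq_nhds] with z' hz' k
    exact Ik_eq hz' k
  refine ⟨?_, hg.bd.congr h1, ?_, ?_⟩
  · filter_upwards [hg.hol, h1.eventually_nhds] with z' h2 h3 k
    exact (h2 k).congr (h3.mono fun z'' h4 => h4 k)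
  · filter_upwards [hg.inv, Sm_congr h1, (TT_tend ρ z).eventually (Sm_congr h1), TT_ev h]
      with p h2 h3 h4 h5
    rw [← h5, ← h4, h2, h3]
  · filter_upwards [hg.odd, h1] with z' h2 h3 k hk
    rw [← h3, h2 k hk]

/-! ## 2. The start -/

theorem exists_real_ne {P : ℂ → Prop} {x₀ : ℝ} (h : ∀ᶠ z in 𝓝 (x₀ : ℂ), P z) :
    ∃ x : ℝ, x ≠ x₀ ∧ P x := by
  have h1 : ∀ᶠ x : ℝ in 𝓝 x₀, P (x : ℂ) := (Complex.continuous_ofReal.tendsto x₀).eventually h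
  have h2 : ∀ᶠ x : ℝ in 𝓝[≠] x₀, P (x : ℂ) := h1.filter_mono nhdsWithin_le_nhds
  have h3 : ∀ᶠ x : ℝ in 𝓝[≠] x₀, x ≠ x₀ := self_mem_nhdsWithin
  obtain ⟨x, hx, hx'⟩ := (h2.and h3).exists
  exact ⟨x, hx', hx⟩

theorem start_good (A : RootA) (pA : PA) {h : ℝ → ℝ} {η : ℝ} (hη : 0 < η) (hs : SmoothTable h)
    (hc : Collar h η) {U : Set ℂ} {π g : ℂ → ℂ} (C : Cont h U π g) :
    ∃ u₀ ∈ U, GoodAt π g u₀ := by
  obtain ⟨R, δ, E, ξ, X, hR, P⟩ := pA h η hη hs hc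
  obtain ⟨u₀, hu₀, x₀, hx₀, hst⟩ := C.start
  refine ⟨u₀, hu₀, ?_⟩
  have hgood := H247.realStart A R δ E ξ X P x₀
  intro ρ hρ
  have hπa : AnalyticAt ℂ π u₀ := C.dπ.analyticAt (C.hU.mem_nhds hu₀)
  have hga : AnalyticAt ℂ g u₀ := C.dg.analyticAt (C.hU.mem_nhds hu₀)
  have hStr : Str δ ∈ 𝓝 (x₀ : ℂ) := by
    refine IsOpen.mem_nhds ?_ (by simp [Str, P.hδ])
    exact isOpen_lt (by fun_prop) continuous_const
  have hRa : AnalyticAt ℂ R x₀ := P.dR.analyticAt hStr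
  have hmap : map π (𝓝 u₀) = 𝓝 (x₀ : ℂ) := by
    rw [← hx₀]
    exact hπa.hasStrictDerivAt.map_nhds_eq (C.ne u₀ hu₀).1
  have hFa : AnalyticAt ℂ (fun u => g u - R (π u)) u₀ := hga.sub (hRa.comp_of_eq hπa hx₀)
  have key : ∀ᶠ u in 𝓝 u₀, g u - R (π u) = 0 := by
    rcases hFa.eventually_eq_zero_or_eventually_ne_zero with h1 | h1
    · exact h1
    · exfalso
      rw [eventually_nhdsWithin_iff] at h1
      have h2 : ∀ᶠ z in 𝓝 (x₀ : ℂ), ∃ u, π u = z ∧ ((u ∈ ({u₀}ᶜ : Set ℂ) → g u - R (π u) ≠ 0) ∧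
          ∀ x : ℝ, π u = x → g u = ((h x + deriv (deriv h) x : ℝ) : ℂ)) := by
        rw [← hmap, eventually_map]
        filter_upwards [h1, hst] with u h2 h3
        exact ⟨u, rfl, h2, h3⟩
      obtain ⟨x, hx, u, hu, h3, h4⟩ := exists_real_ne h2
      refine h3 ?_ ?_
      · intro h5
        rw [mem_singleton_iff] at h5
        rw [h5, hx₀] at hu
        exact hx (by exact_mod_cast hu.symm)
      · rw [h4 x hu, hu, hR x, sub_self]
  have hev : R =ᶠ[𝓝 (x₀ : ℂ)] ρ := by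
    have : ∀ᶠ z in 𝓝 (x₀ : ℂ), R z = ρ z := by
      rw [← hmap, eventually_map]
      filter_upwards [key, hρ] with u h1 h2
      rw [h2, sub_eq_zero.1 h1]
    exact this
  rw [hx₀]
  exact good_congr hev hgood

/-! ## 3. The finitely branched ends -/

theorem nzBranch (A : RootA) (cg : ContGood) (ee : EndE) (pA : PA) (k1 : PK1) (k2 : PK2)
    (k3 : PK3) : NZBranch := by
  intro h η hη hs hc U π g C N k R ψ₀ ε hN hε dR R0 hend
  obtain ⟨u₀, hu₀, h0⟩ := start_good A pA hη hs hc C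
  have hall := cg U π g u₀ C.hU C.conn C.dπ C.dg C.ne hu₀ h0
  have hRc : ∀ᶠ ξ in 𝓝 (0 : ℂ), R ξ ≠ 0 :=
    (dR.continuousOn.continuousAt (ball_mem_nhds 0 hε)).eventually_ne R0
  obtain ⟨r, hr, hr'⟩ := Metric.eventually_nhds_iff_ball.1 hRc
  have he : 0 < min r ε := lt_min hr hε
  obtain ⟨E, hE, hodd, hEc, hlaw⟩ := ee N k R ψ₀ (min r ε) he hN
    (dR.mono (ball_subset_ball (min_le_right _ _)))
    (fun ξ hξ => hr' ξ (ball_subset_ball (min_le_left _ _) hξ)) (by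
      intro ξ hξ hξ0 ρ hρ
      have hξε : ξ ∈ ball (0 : ℂ) ε := ball_subset_ball (min_le_right _ _) hξ
      obtain ⟨hU, hπ, hg⟩ := hend ξ hξε hξ0
      rw [← hπ]
      refine hall ξ hU ρ ?_
      have h1 : ball (0 : ℂ) ε ∩ {0}ᶜ ∈ 𝓝 ξ :=
        (isOpen_ball.inter isOpen_compl_singleton).mem_nhds ⟨hξε, hξ0⟩
      filter_upwards [hρ, h1] with ξ' h2 h3
      obtain ⟨_, h4, h5⟩ := hend ξ' h3.1 h3.2
      rw [h4, h5, h2])
  have hcast : ((k : ℂ) / (N : ℂ)) = (((k : ℝ) / (N : ℝ) : ℝ) : ℂ) := by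
    push_cast
    rfl
  simp only [hcast] at hlaw
  obtain ⟨f, hf⟩ := lawEB A ((k : ℝ) / N) E hE hodd hEc hlaw
  have hN0 : (0 : ℝ) < N := by exact_mod_cast hN
  by_contra hcon
  push Not at hcon
  obtain ⟨c1, c2, c3⟩ := hcon
  have d1 : (k : ℝ) / N ≠ 0 := by
    refine div_ne_zero ?_ hN0.ne'
    exact_mod_cast c1
  have d2 : (k : ℝ) / N ≠ -3 / 2 := by
    intro h1
    rw [div_eq_div_iff hN0.ne' two_ne_zero] at h1
    refine c2 ?_
    have : ((2 * k : ℤ) : ℝ) = ((-3 * N : ℤ) : ℝ) := by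
      push_cast
      linarith
    exact_mod_cast this
  have d3 : -2 < (k : ℝ) / N := by
    rw [lt_div_iff₀ hN0]
    exact_mod_cast c3
  rcases lt_or_ge ((k : ℝ) / N) (-3 / 2) with h1 | h1
  · exact k3 _ f d3 h1 hf
  rcases eq_or_lt_of_le h1 with h1' | h1'
  · exact d2 h1'.symm
  rcases le_or_gt ((k : ℝ) / N) (-1) with h2 | h2
  · exact k2 _ f h1' h2 hf
  · exact k1 _ f h2 d1 hf

/-! ## 4. Domains of continuation -/

theorem preconn_punct (z : ℂ) (r : ℝ) : IsPreconnected (ball z r ∩ {z}ᶜ) := by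
  have h1 : ball z r ∩ {z}ᶜ =
      (fun p : ℝ × ℝ => z + (p.1 : ℂ) * Complex.exp (p.2 * I)) '' (Ioo 0 r ×ˢ univ) := by
    ext w
    simp only [mem_inter_iff, mem_ball, dist_eq_norm, mem_compl_iff, mem_singleton_iff, mem_image,
      mem_prod, mem_Ioo, mem_univ, and_true, Prod.exists]
    constructor
    · rintro ⟨h1, h2⟩
      refine ⟨‖w - z‖, Complex.arg (w - z), ⟨norm_pos_iff.2 (sub_ne_zero.2 h2), h1⟩, ?_⟩
      rw [Complex.norm_mul_exp_arg_mul_I]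
      ring
    · rintro ⟨a, b, ⟨h1, h2⟩, rfl⟩
      have h3 : ‖(a : ℂ) * Complex.exp (b * I)‖ = a := by
        rw [norm_mul, Complex.norm_exp_ofReal_mul_I, mul_one, norm_real, Real.norm_eq_abs,
          abs_of_pos h1]
      refine ⟨by rw [add_sub_cancel_left, h3]; exact h2, fun h4 => ?_⟩
      rw [add_eq_left] at h4
      rw [h4, norm_zero] at h3
      exact h1.ne h3
  rw [h1]
  refine IsPreconnected.image ?_ _ ?_
  · exact (isPreconnected_Ioo).prod isPreconnected_univ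
  · fun_prop

theorem preconn_ne {D : Set ℂ} {ρ : ℂ → ℂ} (hD : IsOpen D) (hc : IsPreconnected D)
    (hz : ∀ z ∈ D, ∀ᶠ w in 𝓝[≠] z, ρ w ≠ 0) (hρ : ContinuousOn ρ D) :
    IsPreconnected {z | z ∈ D ∧ ρ z ≠ 0} := by
  intro V W hV hW hVW hUV hUW
  by_contra hcon
  rw [Set.not_nonempty_iff_eq_empty] at hcon
  set U : Set ℂ := {z | z ∈ D ∧ ρ z ≠ 0} with hU
  have hopen : ∀ V : Set ℂ, IsOpen V → IsOpen {z | ∀ᶠ w in 𝓝[≠] z, w ∈ V} := by
    intro V hV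
    rw [isOpen_iff_eventually]
    intro z hz
    rw [mem_setOf_eq, eventually_nhdsWithin_iff] at hz
    filter_upwards [hz] with w hw
    rcases eq_or_ne w z with rfl | hwz
    · rw [eventually_nhdsWithin_iff]
      exact hz
    · have : V ∈ 𝓝 w := hV.mem_nhds (hw hwz)
      exact mem_nhdsWithin_of_mem_nhds this
  have hcov : D ⊆ {z | ∀ᶠ w in 𝓝[≠] z, w ∈ V} ∪ {z | ∀ᶠ w in 𝓝[≠] z, w ∈ W} := by
    intro z hzD
    have h1 : ∀ᶠ w in 𝓝 z, w ∈ D := hD.mem_nhds hzD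
    have h2 := hz z hzD
    rw [eventually_nhdsWithin_iff] at h2
    obtain ⟨r, hr, h3⟩ := Metric.eventually_nhds_iff_ball.1 (h1.and h2)
    have hsub : ball z r ∩ {z}ᶜ ⊆ U := fun w hw => ⟨(h3 w hw.1).1, (h3 w hw.1).2 hw.2⟩
    have hmem : ∀ S : Set ℂ, ball z r ∩ {z}ᶜ ⊆ S → ∀ᶠ w in 𝓝[≠] z, w ∈ S := by
      intro S hS
      rw [eventually_nhdsWithin_iff]
      filter_upwards [ball_mem_nhds z hr] with w hw hw'
      exact hS ⟨hw, hw'⟩
    by_cases hv : (ball z r ∩ {z}ᶜ ∩ V).Nonempty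
    · by_cases hw : (ball z r ∩ {z}ᶜ ∩ W).Nonempty
      · exfalso
        obtain ⟨w, h4, h5⟩ := preconn_punct z r V W hV hW (hsub.trans hVW) hv hw
        have : w ∈ U ∩ (V ∩ W) := ⟨hsub h4, h5⟩
        rw [hcon] at this
        exact this
      · left
        refine hmem V fun w h4 => ?_
        rcases hVW (hsub h4) with h5 | h5
        · exact h5
        · exact absurd ⟨w, h4, h5⟩ hw
    · right
      refine hmem W fun w h4 => ?_
      rcases hVW (hsub h4) with h5 | h5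
      · exact absurd ⟨w, h4, h5⟩ hv
      · exact h5
  obtain ⟨v, hv, hvV⟩ := hUV
  obtain ⟨w, hw, hwW⟩ := hUW
  obtain ⟨z, hzD, h1', h2'⟩ := hc _ _ (hopen V hV) (hopen W hW) hcov
    ⟨v, hv.1, mem_nhdsWithin_of_mem_nhds (hV.mem_nhds hvV)⟩
    ⟨w, hw.1, mem_nhdsWithin_of_mem_nhds (hW.mem_nhds hwW)⟩
  have h1 : ∀ᶠ w in 𝓝[≠] z, w ∈ V := h1'
  have h2 : ∀ᶠ w in 𝓝[≠] z, w ∈ W := h2'
  have h3 : ∀ᶠ w in 𝓝[≠] z, w ∈ D := mem_nhdsWithin_of_mem_nhds (hD.mem_nhds hzD)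
  obtain ⟨y, ⟨⟨h4, h5⟩, h6⟩, h7⟩ :=
    (((h1.and h2).and h3).and (hz z hzD)).exists
  have : y ∈ U ∩ (V ∩ W) := ⟨⟨h6, h7⟩, h4, h5⟩
  rw [hcon] at this
  exact this

theorem deriv_real {H : ℂ → ℂ} {h : ℝ → ℝ} {D : Set ℂ} (hD : IsOpen D)
    (dH : DifferentiableOn ℂ H D) (dh : Differentiable ℝ h) {x₀ : ℝ} (hx : (x₀ : ℂ) ∈ D)
    (he : ∀ᶠ x : ℝ in 𝓝 x₀, H x = h x) : ∀ᶠ x : ℝ in 𝓝 x₀, deriv H x = deriv h x := by
  have h1 : ∀ᶠ x : ℝ in 𝓝 x₀, (x : ℂ) ∈ D :=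
    (Complex.continuous_ofReal.tendsto x₀).eventually (hD.mem_nhds hx)
  filter_upwards [h1, he.eventually_nhds] with x h2 h3
  have h4 : HasDerivAt H (deriv H x) (x : ℂ) := (dH.differentiableAt (hD.mem_nhds h2)).hasDerivAt
  have h5 : HasDerivAt (fun y : ℝ => H y) (deriv H x) x := h4.comp_ofReal
  have h6 : HasDerivAt (fun y : ℝ => ((h y : ℝ) : ℂ)) ((deriv h x : ℝ) : ℂ) x :=
    (dh x).hasDerivAt.ofReal_comp
  have h7 : (fun y : ℝ => H y) =ᶠ[𝓝 x] fun y : ℝ => ((h y : ℝ) : ℂ) := h3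
  exact (h5.congr_of_eventuallyEq h7.symm).unique h6

theorem nzMain (br : NZBranch) : NZMain := by
  intro h η hη hs hc D H x₀ hD hpre hx₀ dH hH z₀ hz₀ hzero
  have dH1 : DifferentiableOn ℂ (deriv H) D := dH.deriv hD
  have dH2 : DifferentiableOn ℂ (deriv (deriv H)) D := dH1.deriv hD
  set ρ : ℂ → ℂ := fun z => H z + deriv (deriv H) z with hρ
  have dρ : DifferentiableOn ℂ ρ D := dH.add dH2
  have aρ : AnalyticOnNhd ℂ ρ D := dρ.analyticOnNhd hD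
  have s1 : Differentiable ℝ h := hs.1.differentiable (by simp)
  have s2 : Differentiable ℝ (deriv h) :=
    (contDiff_infty_iff_deriv.1 hs.1).2.differentiable (by simp)
  have e1 := deriv_real hD dH s1 hx₀ hH
  have e2 := deriv_real hD dH1 s2 hx₀ e1
  have e3 : ∀ᶠ x : ℝ in 𝓝 x₀, ρ x = ((h x + deriv (deriv h) x : ℝ) : ℂ) := by
    filter_upwards [hH, e2] with x h1 h2
    simp only [hρ]
    rw [h1, h2]
    push_cast
    rfl
  have hρx : ρ x₀ ≠ 0 := by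
    rw [e3.self_of_nhds]
    have := hs.2.2 x₀
    exact_mod_cast this.ne'
  have hnz : ∀ z ∈ D, ¬ ∀ᶠ w in 𝓝 z, ρ w = 0 := by
    intro z hz h1
    exact hρx (aρ.eqOn_zero_of_preconnected_of_eventuallyEq_zero hpre hz h1 hx₀)
  have hiso : ∀ z ∈ D, ∀ᶠ w in 𝓝[≠] z, ρ w ≠ 0 := by
    intro z hz
    rcases (aρ z hz).eventually_eq_zero_or_eventually_ne_zero with h1 | h1
    · exact absurd h1 (hnz z hz)
    · exact h1
  obtain ⟨m, R, hR, hR0, hRe⟩ :=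
    ((aρ z₀ hz₀).exists_eventuallyEq_pow_smul_nonzero_iff).2 (hnz z₀ hz₀)
  have hm : m ≠ 0 := by
    rintro rfl
    have h1 := hRe.self_of_nhds
    simp only [pow_zero, one_smul] at h1
    exact hR0 (h1 ▸ hzero)
  -- the translated piece
  have tr : Continuous (fun ξ : ℂ => ξ + z₀) := by fun_prop
  have hall : ∀ᶠ z in 𝓝 z₀, z ∈ D ∧ AnalyticAt ℂ R z ∧ R z ≠ 0 ∧ ρ z = (z - z₀) ^ m • R z := by
    filter_upwards [hD.mem_nhds hz₀, hR.eventually_analyticAt, hR.continuousAt.eventually_ne hR0,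
      hRe] with z h1 h2 h3 h4
    exact ⟨h1, h2, h3, h4⟩
  obtain ⟨ε, hε, hb⟩ := Metric.eventually_nhds_iff_ball.1 hall
  have hb' : ∀ ξ ∈ ball (0 : ℂ) ε, ξ + z₀ ∈ ball z₀ ε := by
    intro ξ hξ
    rw [mem_ball, dist_eq_norm, add_sub_cancel_right]
    simpa using hξ
  have hUeq : {ξ : ℂ | ξ + z₀ ∈ D ∧ ρ (ξ + z₀) ≠ 0} =
      (fun z : ℂ => z + -z₀) '' {z | z ∈ D ∧ ρ z ≠ 0} := by
    ext ξ
    simp only [mem_setOf_eq, mem_image]
    constructor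
    · intro h1
      exact ⟨ξ + z₀, h1, by ring⟩
    · rintro ⟨z, h1, rfl⟩
      simpa using h1
  have hUopen : IsOpen {z | z ∈ D ∧ ρ z ≠ 0} := by
    have : {z | z ∈ D ∧ ρ z ≠ 0} = D ∩ ρ ⁻¹' {0}ᶜ := rfl
    rw [this]
    exact dρ.continuousOn.isOpen_inter_preimage hD isOpen_compl_singleton
  have C : Cont h {ξ : ℂ | ξ + z₀ ∈ D ∧ ρ (ξ + z₀) ≠ 0} (fun ξ => ξ + z₀) (fun ξ => ρ (ξ + z₀)) := by
    refine ⟨?_, ?_, ?_, ?_, ?_, ?_⟩
    · exact hUopen.preimage tr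
    · rw [hUeq]
      exact (preconn_ne hD hpre hiso dρ.continuousOn).image _ (by fun_prop)
    · fun_prop
    · intro ξ hξ
      have h1 : DifferentiableAt ℂ ρ (ξ + z₀) := dρ.differentiableAt (hD.mem_nhds hξ.1)
      have h2 : DifferentiableAt ℂ (fun ξ : ℂ => ρ (ξ + z₀)) ξ :=
        DifferentiableAt.comp (g := ρ) (f := fun ξ : ℂ => ξ + z₀) ξ h1 (by fun_prop)
      exact h2.differentiableWithinAt
    · intro ξ hξ
      refine ⟨?_, hξ.2⟩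
      have : HasDerivAt (fun ξ : ℂ => ξ + z₀) 1 ξ := (hasDerivAt_id ξ).add_const z₀
      rw [this.deriv]
      exact one_ne_zero
    · refine ⟨(x₀ : ℂ) - z₀, ⟨by simpa using hx₀, by simpa using hρx⟩, x₀, by simp, ?_⟩
      have h1 : Tendsto (fun ξ : ℂ => (ξ + z₀).re) (𝓝 ((x₀ : ℂ) - z₀)) (𝓝 x₀) := by
        refine Continuous.tendsto' (by fun_prop) _ _ ?_
        simp
      filter_upwards [h1.eventually e3] with ξ h2 x h3
      have h4 : (ξ + z₀).re = x := by rw [h3]; simp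
      rw [h4] at h2
      show ρ (ξ + z₀) = _
      rw [h3]
      exact h2
  have := br h η hη hs hc _ _ _ C 1 (m : ℤ) (fun ξ => R (ξ + z₀)) z₀ ε le_rfl hε
    (by
      intro ξ hξ
      have h1 : DifferentiableAt ℂ R (ξ + z₀) := (hb _ (hb' ξ hξ)).2.1.differentiableAt
      have h2 : DifferentiableAt ℂ (fun ξ : ℂ => R (ξ + z₀)) ξ :=
        DifferentiableAt.comp (g := R) (f := fun ξ : ℂ => ξ + z₀) ξ h1 (by fun_prop)
      exact h2.differentiableWithinAt)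
    (by simpa using hR0)
    (by
      intro ξ hξ hξ0
      obtain ⟨h1, h2, h3, h4⟩ := hb _ (hb' ξ hξ)
      rw [add_sub_cancel_right, smul_eq_mul] at h4
      refine ⟨⟨h1, ?_⟩, ?_, ?_⟩
      · rw [h4]
        exact mul_ne_zero (pow_ne_zero _ hξ0) h3
      · show ξ + z₀ = z₀ + ξ ^ 1
        ring
      · show ρ (ξ + z₀) = _
        rw [h4, zpow_natCast])
  rcases this with h1 | h1 | h1
  · exact hm (by exact_mod_cast h1)
  · push_cast at h1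
    omega
  · push_cast at h1
    omega

end Vale.Agent.P097.H519
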